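import Vale.Agent.P246.R2.H301.SSRing

/-! # P246: Bass' stable range theorem with the right bound -/

namespace Vale.Agent.P246.H301

open Submodule

section step

variable {A R : Type*} [CommRing A] [Ring R] [Algebra A R]

/-- the two-sided ideal `I R` -/
def ext (R : Type*) [Ring R] [Algebra A R] (I : Ideal A) : Ideal R := I.map (algebraMap A R)

instance (I : Ideal A) : (ext R I).IsTwoSided where
  mul_mem_of_left := by
    intro a b ha
    induction ha using Submodule.span_induction with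
    | mem x hx =>
      obtain ⟨r, hr, rfl⟩ := hx
      rw [Algebra.commutes]
      exact Ideal.mul_mem_left _ _ (Ideal.mem_map_of_mem _ hr)
    | zero => rw [zero_mul]; exact zero_mem _
    | add x y _ _ hx hy => rw [add_mul]; exact add_mem hx hy
    | smul s x _ hx => rw [smul_eq_mul, mul_assoc]; exact Ideal.mul_mem_left _ _ hx

theorem art_ext [Module.Finite A R] (I : Ideal A) [IsArtinianRing (A ⧸ I)] :
    IsArtinianRing (R ⧸ ext R I) := by
  have hT : Module.IsTorsionBySet A (R ⧸ ext R I) I := by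
    rintro x ⟨a, ha⟩
    obtain ⟨x, rfl⟩ := Ideal.Quotient.mk_surjective x
    show a • (Ideal.Quotient.mk (ext R I) x) = 0
    rw [Algebra.smul_def]
    have h1 : algebraMap A (R ⧸ ext R I) a = Ideal.Quotient.mk (ext R I) (algebraMap A R a) := rfl
    rw [h1, ← map_mul, Ideal.Quotient.eq_zero_iff_mem]
    exact Ideal.mul_mem_right _ _ (Ideal.mem_map_of_mem _ ha)
  let _ := hT.module
  have : IsScalarTower A (A ⧸ I) (R ⧸ ext R I) := hT.isScalarTower
  have : Module.Finite A (R ⧸ ext R I) :=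
    Module.Finite.of_surjective (Ideal.Quotient.mkₐ A (ext R I)).toLinearMap
      Ideal.Quotient.mk_surjective
  have : Module.Finite (A ⧸ I) (R ⧸ ext R I) := Module.Finite.of_restrictScalars_finite A _ _
  have : IsArtinian (A ⧸ I) (R ⧸ ext R I) := isArtinian_of_fg_of_artinian'
  have : IsArtinian A (R ⧸ ext R I) :=
    isArtinian_of_surjective_algebraMap (R := A ⧸ I) Ideal.Quotient.mk_surjective
  exact isArtinian_of_tower A inferInstance

/-- one step: the new row generates modulo `I R` -/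
theorem step (I : Ideal A) [IsArtinianRing (R ⧸ ext R I)] (J B : Ideal R) (y : R)
    (h : J ⊔ Ideal.span {y} ⊔ B = ⊤) :
    ∃ b ∈ B, (J ⊔ Ideal.span {y + b}) ⊔ ext R I = ⊤ := by
  let p1 := Ideal.Quotient.mk (ext R I)
  let p2 := Ideal.Quotient.mk (Ring.jacobson (R ⧸ ext R I))
  let p := p2.comp p1
  have hp : Function.Surjective p :=
    Ideal.Quotient.mk_surjective.comp Ideal.Quotient.mk_surjective
  have h1 : Ideal.span {p y} ⊔ Ideal.map p (J ⊔ B) = ⊤ := by
    have h2 : Ideal.map p (J ⊔ Ideal.span {y} ⊔ B) = ⊤ := by rw [h, Ideal.map_top]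
    rw [Ideal.map_sup, Ideal.map_sup, Ideal.map_span, Set.image_singleton] at h2
    rw [Ideal.map_sup, ← h2]
    ac_rfl
  obtain ⟨q, hq, hq2⟩ := ss_unit (p y) (Ideal.map p (J ⊔ B)) h1
  obtain ⟨x, hx, rfl⟩ := (Ideal.mem_map_iff_of_surjective p hp).1 hq
  obtain ⟨j, hj, b, hb, rfl⟩ := mem_sup.1 hx
  refine ⟨b, hb, ?_⟩
  rw [Ideal.eq_top_iff_one, Ideal.mem_span_singleton'] at hq2
  obtain ⟨q', hq'⟩ := hq2
  obtain ⟨r, rfl⟩ := hp q'
  have h3 : p (r * (y + (j + b))) = 1 := by rw [map_mul, map_add]; exact hq'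
  have h4 : p1 (r * (y + (j + b))) - 1 ∈ Ring.jacobson (R ⧸ ext R I) := by
    rw [← Ideal.Quotient.eq_zero_iff_mem, map_sub, map_one]
    exact sub_eq_zero.2 h3
  rw [← Ideal.jacobson_bot, Ideal.mem_jacobson_iff] at h4
  obtain ⟨z, hz⟩ := h4 1
  obtain ⟨z, rfl⟩ := Ideal.Quotient.mk_surjective z
  have h5 : p1 (z * (r * (y + (j + b))) - 1) = 0 := by
    have h6 : p1 z * 1 * (p1 (r * (y + (j + b))) - 1) + p1 z - 1 = 0 := hz
    rw [mul_one, mul_sub, mul_one, sub_add_cancel] at h6
    rw [map_sub, map_mul, map_one]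
    exact h6
  have h7 : z * (r * (y + (j + b))) - 1 ∈ ext R I := Ideal.Quotient.eq_zero_iff_mem.1 h5
  have h8 : z * (r * (y + (j + b))) ∈ J ⊔ Ideal.span {y + b} := by
    refine Ideal.mul_mem_left _ _ (Ideal.mul_mem_left _ _ ?_)
    have e : y + (j + b) = j + (y + b) := by abel
    rw [e]
    exact add_mem (mem_sup_left hj) (mem_sup_right (Ideal.mem_span_singleton_self _))
  rw [Ideal.eq_top_iff_one]
  have e : (1 : R) = z * (r * (y + (j + b))) - (z * (r * (y + (j + b))) - 1) := by abel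
  rw [e]
  exact sub_mem (mem_sup_left h8) (mem_sup_right h7)

/-- Nakayama: if `J + I R = R`, an element of `1 + I` kills `R / J` -/
theorem naka [Module.Finite A R] (I : Ideal A) (J : Ideal R) (h : J ⊔ ext R I = ⊤) :
    ∃ s : A, s - 1 ∈ I ∧ s ∈ Module.annihilator A (R ⧸ J) := by
  have : Module.Finite A (R ⧸ J) :=
    Module.Finite.of_surjective ((Submodule.mkQ J).restrictScalars A) (Submodule.mkQ_surjective J)
  have key : ∀ x ∈ ext R I, ((Submodule.mkQ J) x : R ⧸ J) ∈
      (I • (⊤ : Submodule A (R ⧸ J)) : Submodule A (R ⧸ J)) := by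
    intro x hx
    induction hx using Submodule.span_induction with
    | mem x hx =>
      obtain ⟨r, hr, rfl⟩ := hx
      have e : (Submodule.mkQ J) (algebraMap A R r) = r • (Submodule.mkQ J) (1 : R) := by
        rw [← LinearMap.map_smul_of_tower, Algebra.smul_def, mul_one]
      rw [e]
      exact smul_mem_smul hr trivial
    | zero => rw [map_zero]; exact zero_mem _
    | add x y _ _ hx hy => rw [map_add]; exact add_mem hx hy
    | smul s x hx' hx =>
      rw [map_smul]
      -- left multiplication by `s` is `A`-linear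
      let g : (R ⧸ J) →ₗ[A] (R ⧸ J) := 
        { toFun := fun m => s • m
          map_add' := fun a b => smul_add s a b
          map_smul' := fun a m => by
            show s • (a • m) = a • (s • m)
            rw [← algebraMap_smul R a m, ← algebraMap_smul R a (s • m), smul_smul, smul_smul,
              Algebra.commutes] }
      have h1 : g ((Submodule.mkQ J) x) ∈ Submodule.map g (I • (⊤ : Submodule A (R ⧸ J))) :=
        mem_map_of_mem hx
      rw [Submodule.map_smul''] at h1
      exact Submodule.smul_mono le_rfl le_top h1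
  have hle : (⊤ : Submodule A (R ⧸ J)) ≤ I • ⊤ := by
    intro m _
    obtain ⟨x, rfl⟩ := Submodule.mkQ_surjective J m
    have h1 : x ∈ J ⊔ ext R I := by rw [h]; trivial
    obtain ⟨j, hj, u, hu, rfl⟩ := mem_sup.1 h1
    rw [map_add, (Submodule.Quotient.mk_eq_zero J).2 hj |> (fun h => (show J.mkQ j = 0 from h)),
      zero_add]
    exact key u hu
  obtain ⟨s, hs1, hs2⟩ := exists_sub_one_mem_and_smul_eq_zero_of_fg_of_le_smul I
    (⊤ : Submodule A (R ⧸ J)) Module.Finite.fg_top hle
  exact ⟨s, hs1, Module.mem_annihilator.2 fun m => hs2 m trivial⟩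

/-- a noetherian quotient by an intersection of maximal ideals is artinian -/
theorem art_inf [IsNoetherianRing A] {ι : Type*} (s : Finset ι) (m : ι → Ideal A)
    (hm : ∀ i ∈ s, (m i).IsMaximal) : IsArtinianRing (A ⧸ s.inf m) := by
  rw [isArtinianRing_iff_krullDimLE_zero, Ring.krullDimLE_zero_iff]
  intro P hP
  have hc : (P.comap (Ideal.Quotient.mk (s.inf m))).IsPrime := Ideal.comap_isPrime _ P
  have hle : s.inf m ≤ P.comap (Ideal.Quotient.mk (s.inf m)) := by
    intro x hx
    rw [Ideal.mem_comap, Ideal.Quotient.eq_zero_iff_mem.2 hx]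
    exact P.zero_mem
  obtain ⟨i, hi, hi2⟩ := (hc.inf_le').1 hle
  have he : m i = P.comap (Ideal.Quotient.mk (s.inf m)) := (hm i hi).eq_of_le hc.ne_top hi2
  have hmax : (P.comap (Ideal.Quotient.mk (s.inf m))).IsMaximal := he ▸ hm i hi
  have h1 := Ideal.map_eq_top_or_isMaximal_of_surjective (Ideal.Quotient.mk (s.inf m))
    Ideal.Quotient.mk_surjective hmax
  rw [Ideal.map_comap_of_surjective _ Ideal.Quotient.mk_surjective] at h1
  exact h1.resolve_left hP.ne_top

/-- the step with heights -/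
theorem step_height [IsNoetherianRing A] [Module.Finite A R] (k : ℕ) (J B : Ideal R) (y : R)
    (h : J ⊔ Ideal.span {y} ⊔ B = ⊤)
    (hJ : ∀ p : Ideal A, p.IsPrime → Module.annihilator A (R ⧸ J) ≤ p → (k : ℕ∞) ≤ p.height) :
    ∃ b ∈ B, ∀ p : Ideal A, p.IsPrime →
      Module.annihilator A (R ⧸ (J ⊔ Ideal.span {y + b} : Ideal R)) ≤ p →
      ((k + 1 : ℕ) : ℕ∞) ≤ p.height := by
  classical
  let a := Module.annihilator A (R ⧸ J)
  have hfin : a.minimalPrimes.Finite := Ideal.finite_minimalPrimes_of_isNoetherianRing A a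
  have hex : ∀ q : Ideal A, q ∈ a.minimalPrimes → ∃ m : Ideal A, m.IsMaximal ∧ q ≤ m :=
    fun q hq => Ideal.exists_le_maximal q hq.1.1.ne_top
  choose! m hm using hex
  let s := hfin.toFinset
  have hms : ∀ q ∈ s, (m q).IsMaximal := fun q hq => (hm q (hfin.mem_toFinset.1 hq)).1
  have := art_inf s m hms
  have := art_ext (A := A) (R := R) (s.inf m)
  obtain ⟨b, hb, hb2⟩ := step (s.inf m) J B y h
  refine ⟨b, hb, fun p hp hle => ?_⟩
  obtain ⟨t, ht1, ht2⟩ := naka (s.inf m) _ hb2
  have hmono : a ≤ Module.annihilator A (R ⧸ (J ⊔ Ideal.span {y + b} : Ideal R)) := by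
    intro r hr
    rw [Module.mem_annihilator] at hr ⊢
    intro x
    obtain ⟨x, rfl⟩ := Submodule.mkQ_surjective _ x
    have h1 : r • (Submodule.mkQ J x) = 0 := hr _
    have h2 : r • x ∈ J := by
      rw [← LinearMap.map_smul_of_tower] at h1
      exact (Submodule.Quotient.mk_eq_zero J).1 h1
    rw [← LinearMap.map_smul_of_tower]
    exact (Submodule.Quotient.mk_eq_zero _).2 (mem_sup_left h2)
  have hle' : a ≤ p := hmono.trans hle
  obtain ⟨q, hq, hqp⟩ := Ideal.exists_minimalPrimes_le hle'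
  have hqpr : q.IsPrime := hq.1.1
  have hk : (k : ℕ∞) ≤ q.height := hJ q hqpr hq.1.2
  have hne : q ≠ p := by
    rintro rfl
    have hqs : q ∈ s := hfin.mem_toFinset.2 hq
    have h1 : t ∈ m q := (hm q hq).2 (hle ht2)
    have h2 : t - 1 ∈ m q := (Finset.inf_le (f := m) hqs) ht1
    have h3 : (1 : A) ∈ m q := by
      have := sub_mem h1 h2
      rwa [sub_sub_cancel] at this
    exact (hms q hqs).ne_top ((Ideal.eq_top_iff_one _).2 h3)
  have hlt : q < p := lt_of_le_of_ne hqp hne
  have h1 := Ideal.height_add_one_le_of_lt_of_isPrime hlt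
  push_cast
  exact (add_le_add_left hk 1).trans h1

theorem bass_left [IsNoetherianRing A] [Module.Finite A R] (d : ℕ)
    (hd : ∀ p : Ideal A, p.IsPrime → p.height ≤ d) : ∀ (n k : ℕ), n + k = d + 1 →
    ∀ (J : Ideal R), (∀ p : Ideal A, p.IsPrime → Module.annihilator A (R ⧸ J) ≤ p →
      (k : ℕ∞) ≤ p.height) → ∀ (y : Fin n → R) (a : R),
      J ⊔ Ideal.span (Set.range y) ⊔ Ideal.span {a} = ⊤ →
      ∃ t : Fin n → R, J ⊔ Ideal.span (Set.range fun i => y i + t i * a) = ⊤ := by
  intro n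
  induction n with
  | zero =>
    intro k hk J hJ y a h
    refine ⟨fun i => i.elim0, ?_⟩
    suffices hT : J = ⊤ by rw [hT, top_sup_eq]
    by_contra hne
    have h1 : Module.annihilator A (R ⧸ J) ≠ ⊤ := by
      rw [Ne, Module.annihilator_eq_top_iff]
      intro hs
      exact hne (Submodule.Quotient.subsingleton_iff.1 hs)
    obtain ⟨p, hp, hle⟩ := Ideal.exists_le_maximal _ h1
    have h2 := hJ p hp.isPrime hle
    have h3 := hd p hp.isPrime
    have h4 : (k : ℕ∞) ≤ (d : ℕ∞) := h2.trans h3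
    have h5 : k ≤ d := by exact_mod_cast h4
    omega
  | succ n ih =>
    intro k hk J hJ y a h
    let tl : Fin n → R := fun i => y i.succ
    have hrange : Ideal.span (Set.range y) = Ideal.span {y 0} ⊔ Ideal.span (Set.range tl) := by
      rw [← Ideal.span_union]
      congr 1
      ext x
      constructor
      · rintro ⟨i, rfl⟩
        refine Fin.cases ?_ (fun i => ?_) i
        · exact Or.inl rfl
        · exact Or.inr ⟨i, rfl⟩
      · rintro (rfl | ⟨i, rfl⟩)
        · exact ⟨0, rfl⟩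
        · exact ⟨i.succ, rfl⟩
    let B : Ideal R := Ideal.span (Set.range tl) ⊔ Ideal.span {a}
    have hB : J ⊔ Ideal.span {y 0} ⊔ B = ⊤ := by
      rw [← h, hrange]
      show J ⊔ Ideal.span {y 0} ⊔ (Ideal.span (Set.range tl) ⊔ Ideal.span {a}) = _
      ac_rfl
    obtain ⟨b, hb, hb2⟩ := step_height k J B (y 0) hB hJ
    obtain ⟨t', ht'⟩ := ih (k + 1) (by omega) (J ⊔ Ideal.span {y 0 + b}) hb2 tl a (by
      rw [eq_top_iff, ← hB]
      have hy : y 0 ∈ J ⊔ Ideal.span {y 0 + b} ⊔ Ideal.span (Set.range tl) ⊔ Ideal.span {a} := by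
        have hle : B ≤ J ⊔ Ideal.span {y 0 + b} ⊔ Ideal.span (Set.range tl) ⊔ Ideal.span {a} :=
          sup_le (le_sup_right.trans le_sup_left) le_sup_right
        have h2 : y 0 + b ∈
            J ⊔ Ideal.span {y 0 + b} ⊔ Ideal.span (Set.range tl) ⊔ Ideal.span {a} :=
          mem_sup_left (mem_sup_left (mem_sup_right (Ideal.mem_span_singleton_self _)))
        have h3 := sub_mem h2 (hle hb)
        rwa [add_sub_cancel_right] at h3
      refine sup_le (sup_le (le_sup_left.trans (le_sup_left.trans le_sup_left)) ?_)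
        (sup_le (le_sup_right.trans le_sup_left) le_sup_right)
      rwa [Ideal.span_singleton_le_iff_mem])
    obtain ⟨b1, hb1, b2, hb2', hbe⟩ := mem_sup.1 hb
    obtain ⟨s, hs⟩ := (Submodule.mem_span_range_iff_exists_fun R).1 hb1
    obtain ⟨c, hc⟩ := Ideal.mem_span_singleton'.1 hb2'
    refine ⟨Fin.cons (c - ∑ i, s i * t' i) t', ?_⟩
    set y' : Fin (n + 1) → R := fun i => y i + (Fin.cons (c - ∑ i, s i * t' i) t' :
      Fin (n + 1) → R) i * a with hy'
    have h0 : y' 0 = y 0 + (c - ∑ i, s i * t' i) * a := rfl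
    have h1 : ∀ i : Fin n, y' i.succ = tl i + t' i * a := fun i => rfl
    rw [eq_top_iff, ← ht']
    have hs1 : Ideal.span (Set.range fun i => tl i + t' i * a) ≤ Ideal.span (Set.range y') := by
      rw [Ideal.span_le]
      rintro _ ⟨i, rfl⟩
      exact Ideal.subset_span ⟨i.succ, h1 i⟩
    have hs2 : y 0 + b ∈ Ideal.span (Set.range y') := by
      have e : y 0 + b = y' 0 + ∑ i, s i * y' i.succ := by
        rw [h0, ← hbe, ← hs, ← hc]
        simp only [h1, mul_add, Finset.sum_add_distrib, sub_mul, Finset.sum_mul, smul_eq_mul,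
          mul_assoc]
        abel
      rw [e]
      refine add_mem (Ideal.subset_span ⟨0, rfl⟩) (sum_mem fun i _ => ?_)
      exact Ideal.mul_mem_left _ _ (Ideal.subset_span ⟨i.succ, rfl⟩)
    refine sup_le (sup_le le_sup_left ?_) (hs1.trans le_sup_right)
    rw [Ideal.span_singleton_le_iff_mem]
    exact mem_sup_right hs2

/-- **Bass' stable range theorem** (right unimodular rows) -/
theorem bass2 [IsNoetherianRing A] [Module.Finite A R] (d : ℕ)
    (hd : ∀ p : Ideal A, p.IsPrime → p.height ≤ d) (y : Fin (d + 1) → R) (a : R)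
    (h : ∃ (b : Fin (d + 1) → R) (c : R), ∑ i, y i * b i + a * c = 1) :
    ∃ t v : Fin (d + 1) → R, ∑ i, (y i + a * t i) * v i = 1 := by
  obtain ⟨b, c, h⟩ := h
  have : Module.Finite A Rᵐᵒᵖ := Module.Finite.equiv (MulOpposite.opLinearEquiv A)
  have h1 : (⊥ : Ideal Rᵐᵒᵖ) ⊔ Ideal.span (Set.range fun i => MulOpposite.op (y i)) ⊔
      Ideal.span {MulOpposite.op a} = ⊤ := by
    rw [Ideal.eq_top_iff_one]
    have e : (1 : Rᵐᵒᵖ) = ∑ i, MulOpposite.op (b i) * MulOpposite.op (y i) +
        MulOpposite.op c * MulOpposite.op a := by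
      rw [← MulOpposite.op_one, ← h]
      simp only [MulOpposite.op_add, Finset.op_sum, MulOpposite.op_mul]
    rw [e]
    refine add_mem (mem_sup_left (mem_sup_right (sum_mem fun i _ => ?_))) (mem_sup_right ?_)
    · exact Ideal.mul_mem_left _ _ (Ideal.subset_span ⟨i, rfl⟩)
    · exact Ideal.mul_mem_left _ _ (Ideal.mem_span_singleton_self _)
  obtain ⟨t, ht⟩ := bass_left (A := A) (R := Rᵐᵒᵖ) d hd (d + 1) 0 (by omega) ⊥
    (fun p _ _ => by simp) (fun i => MulOpposite.op (y i)) (MulOpposite.op a) h1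
  rw [bot_sup_eq, Ideal.eq_top_iff_one] at ht
  obtain ⟨v, hv⟩ := (Submodule.mem_span_range_iff_exists_fun Rᵐᵒᵖ).1 ht
  refine ⟨fun i => (t i).unop, fun i => (v i).unop, ?_⟩
  have h2 := congrArg MulOpposite.unop hv
  simp only [smul_eq_mul, Finset.unop_sum, MulOpposite.unop_mul, MulOpposite.unop_add,
    MulOpposite.unop_op, MulOpposite.unop_one] at h2
  exact h2

end step

end Vale.Agent.P246.H301
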