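import Vale.Agent.P246.R2.H301.Bass2
import Vale.Agent.P246.R2.H429.Defs2

/-! # P246: row B2 -/

namespace Vale.Agent.P246.H301

open Vale.Agent.P246.H429

/-- ROW B2 -/
theorem specBass2 : SpecBass2 := fun A R _ _ _ _ _ d hd y a h =>
  bass2 (A := A) (R := R) d hd y a h

end Vale.Agent.P246.H301
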