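import Vale.Agent.P246.R2.H429.Defs2

/-! # P246: the lower bound for the Euler characteristic over virtually abelian groups -/

namespace Vale.Agent.P246.H301.LB

open Vale.Agent.P246 Module

theorem seq (r b : ℕ → ℤ) (h0 : b 0 ≤ r 0) (h1 : r 1 = b 0 + b 1) (h2 : b 1 + b 2 ≤ r 2)
    (h3 : ∀ i, r (i + 3) = b (i + 2) + b (i + 3)) (M : ℕ) :
    (-1 : ℤ) ^ M * b (M + 2) ≤ ∑ i ∈ Finset.range (M + 3), (-1 : ℤ) ^ i * r i := by
  induction M with
  | zero =>
    rw [Finset.sum_range_succ, Finset.sum_range_succ, Finset.sum_range_one]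
    simp only [zero_add, pow_zero, pow_one, one_mul]
    have : ((-1 : ℤ)) ^ 2 = 1 := by norm_num
    rw [this]
    linarith
  | succ M ih =>
    rw [show M + 1 + 3 = (M + 3) + 1 by omega, Finset.sum_range_succ, h3 M,
      show M + 1 + 2 = M + 3 by omega]
    have e1 : (-1 : ℤ) ^ (M + 3) = - (-1) ^ M := by
      rw [pow_add]; norm_num
    have e2 : (-1 : ℤ) ^ (M + 1) = - (-1) ^ M := by
      rw [pow_add]; norm_num
    rw [e1, e2]
    linarith

section

variable {S : Type} [CommRing S] [IsDomain S]

theorem rn {M M' : Type} [AddCommGroup M] [Module S M] [Module.Finite S M] [AddCommGroup M']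
    [Module S M'] (f : M →ₗ[S] M') :
    finrank S (LinearMap.range f) + finrank S (LinearMap.ker f) = finrank S M := by
  rw [← f.quotKerEquivRange.finrank_eq]
  exact Submodule.finrank_quotient_add_finrank _

theorem rfin {R : Type} [AddCommGroup R] [Module S R] [Module.Finite S R] (c : ℕ) :
    finrank S (Fin c → R) = c * finrank S R := by
  induction c with
  | zero =>
    rw [Module.finrank_zero_of_subsingleton, zero_mul]
  | succ c ih =>
    let f : (Fin (c + 1) → R) →ₗ[S] R := LinearMap.proj 0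
    have h1 := rn f
    have h2 : LinearMap.range f = ⊤ := by
      rw [LinearMap.range_eq_top]
      intro x
      exact ⟨fun _ => x, rfl⟩
    let g : LinearMap.ker f ≃ₗ[S] (Fin c → R) :=
      { toFun := fun x i => x.1 i.succ
        map_add' := fun x y => rfl
        map_smul' := fun s x => rfl
        invFun := fun y => ⟨Fin.cons 0 y, by
          rw [LinearMap.mem_ker]
          rfl⟩
        left_inv := by
          rintro ⟨x, hx⟩
          apply Subtype.ext
          funext i
          refine Fin.cases ?_ (fun i => ?_) i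
          · exact hx.symm
          · rfl
        right_inv := by
          intro y
          rfl }
    rw [h2, finrank_top, g.finrank_eq, ih] at h1
    rw [← h1]
    ring

theorem key {R : Type} [Ring R] [Module S R] [IsScalarTower S R R] [Module.Finite S R]
    (inj : ∀ s : S, s • (1 : R) = 0 → s = 0)
    (X : ℕ → Type) [∀ i, AddCommGroup (X i)] [∀ i, Module R (X i)] [∀ i, Module S (X i)]
    [∀ i, IsScalarTower S R (X i)] (d : ∀ i, X (i + 1) →ₗ[R] X i)
    (dd : ∀ i x, d i (d (i + 1) x) = 0) (c : ℕ → ℕ) (N : ℕ)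
    (hc : ∀ i, Nonempty (X i ≃ₗ[R] (Fin (c i) → R))) (hN : ∀ i, N ≤ i → c i = 0)
    (ex1 : ∀ x, d 0 x = 0 → ∃ y, d 1 y = x)
    (ex3 : ∀ i x, d (i + 2) x = 0 → ∃ y, d (i + 3) y = x) :
    0 ≤ ∑ i ∈ Finset.range N, (-1 : ℤ) ^ i * c i := by
  have hfin : ∀ i, Module.Finite S (X i) := by
    intro i
    obtain ⟨e⟩ := hc i
    exact Module.Finite.equiv (e.restrictScalars S).symm
  have hr : ∀ i, finrank S (X i) = c i * finrank S R := by
    intro i
    obtain ⟨e⟩ := hc i
    rw [(e.restrictScalars S).finrank_eq, rfin]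
  have hpos : 0 < finrank S R := by
    let j : S →ₗ[S] R := LinearMap.toSpanSingleton S R 1
    have hj : Function.Injective j := by
      rw [injective_iff_map_eq_zero]
      intro s hs
      exact inj s hs
    have h1 := LinearMap.finrank_le_finrank_of_injective hj
    rw [finrank_self] at h1
    exact h1
  let b : ℕ → ℤ := fun i => finrank S (LinearMap.range ((d i).restrictScalars S))
  let r : ℕ → ℤ := fun i => finrank S (X i)
  have hrn : ∀ i, r (i + 1) = b i + finrank S (LinearMap.ker ((d i).restrictScalars S)) := by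
    intro i
    have h := (rn ((d i).restrictScalars S)).symm
    change ((finrank S (X (i + 1)) : ℕ) : ℤ) = ((finrank S _ : ℕ) : ℤ) + _
    exact_mod_cast h
  have hsub : ∀ i, LinearMap.range ((d (i + 1)).restrictScalars S) ≤
      LinearMap.ker ((d i).restrictScalars S) := by
    rintro i _ ⟨x, rfl⟩
    rw [LinearMap.mem_ker]
    exact dd i x
  have hex : ∀ i, (∀ x, d i x = 0 → ∃ y, d (i + 1) y = x) →
      LinearMap.ker ((d i).restrictScalars S) = LinearMap.range ((d (i + 1)).restrictScalars S) := by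
    intro i h
    refine le_antisymm ?_ (hsub i)
    intro x hx
    obtain ⟨y, hy⟩ := h x hx
    exact ⟨y, hy⟩
  have h0 : b 0 ≤ r 0 := by
    have := Submodule.finrank_le (LinearMap.range ((d 0).restrictScalars S))
    change ((finrank S _ : ℕ) : ℤ) ≤ ((finrank S (X 0) : ℕ) : ℤ)
    exact_mod_cast this
  have h1 : r 1 = b 0 + b 1 := by
    rw [hrn 0, hex 0 ex1]
  have h2 : b 1 + b 2 ≤ r 2 := by
    rw [hrn 1]
    have h3 : b 2 ≤ finrank S (LinearMap.ker ((d 1).restrictScalars S)) := by
      have := Submodule.rank_mono (hsub 1)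
      rw [← Submodule.finrank_eq_rank, ← Submodule.finrank_eq_rank] at this
      change ((finrank S _ : ℕ) : ℤ) ≤ _
      exact_mod_cast this
    linarith
  have h3 : ∀ i, r (i + 3) = b (i + 2) + b (i + 3) := by
    intro i
    rw [hrn (i + 2), hex (i + 2) (ex3 i)]
  have h4 := seq r b h0 h1 h2 h3 N
  have hb : b (N + 2) = 0 := by
    have hs : Subsingleton (X (N + 3)) := by
      obtain ⟨e⟩ := hc (N + 3)
      have h5 : c (N + 3) = 0 := hN _ (by omega)
      rw [h5] at e
      exact e.toEquiv.subsingleton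
    have h6 : LinearMap.range ((d (N + 2)).restrictScalars S) = ⊥ := by
      rw [LinearMap.range_eq_bot]
      ext x
      have : x = 0 := Subsingleton.elim _ _
      rw [this, map_zero, map_zero]
    change ((finrank S (LinearMap.range ((d (N + 2)).restrictScalars S)) : ℕ) : ℤ) = 0
    rw [h6, finrank_bot]
    rfl
  rw [hb, mul_zero] at h4
  have h5 : ∑ i ∈ Finset.range (N + 3), (-1 : ℤ) ^ i * r i =
      (∑ i ∈ Finset.range N, (-1 : ℤ) ^ i * c i) * finrank S R := by
    rw [Finset.sum_mul]
    have h6 : Finset.range N ⊆ Finset.range (N + 3) := by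
      intro i hi
      rw [Finset.mem_range] at hi ⊢
      omega
    rw [← Finset.sum_subset h6]
    · refine Finset.sum_congr rfl fun i _ => ?_
      change (-1 : ℤ) ^ i * ((finrank S (X i) : ℕ) : ℤ) = _
      rw [hr i]
      push_cast
      ring
    · intro i _ hi
      rw [Finset.mem_range, not_lt] at hi
      change (-1 : ℤ) ^ i * ((finrank S (X i) : ℕ) : ℤ) = _
      rw [hr i, hN i hi]
      simp
  rw [h5] at h4
  have hpos' : (0 : ℤ) < finrank S R := by exact_mod_cast hpos
  exact nonneg_of_mul_nonneg_left h4 hpos'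

end

theorem span_reps {G : Type} [Group G] (N : Subgroup G) [N.FiniteIndex] :
    ∃ T : Finset G, ∀ g : G, ∃ n : N, ∃ t ∈ T, g = n * t := by
  classical
  have hf : Finite (G ⧸ N) := inferInstance
  have := Fintype.ofFinite (G ⧸ N)
  refine ⟨Finset.univ.image (fun q : G ⧸ N => (q.out)⁻¹), ?_⟩
  intro g
  obtain ⟨n, hn⟩ := QuotientGroup.mk_out_eq_mul N g⁻¹
  refine ⟨n, ((QuotientGroup.mk g⁻¹ : G ⧸ N).out)⁻¹, ?_, ?_⟩
  · rw [Finset.mem_image]
    exact ⟨_, Finset.mem_univ _, rfl⟩
  · rw [hn]
    group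

end Vale.Agent.P246.H301.LB

namespace Vale.Agent.P246.H301

open Vale.Agent.P246 Vale.Agent.P246.H429 Vale.Agent.P246.H301.LB

theorem rowLB : ∀ (G : Type) [Group G] (h : ℕ),
    (∃ N : Subgroup G, N.FiniteIndex ∧ Nonempty (N ≃* Multiplicative (Fin h → ℤ))) →
    ∀ C : Cx (ZG G), IsD2Complex C → ∀ n : ℤ, HasEuler C n → 0 ≤ n := by
  rintro G _ h ⟨N, hN, ⟨e⟩⟩ C hC n ⟨c, K, hc, hK, rfl⟩
  have hdom := isDomain_S h
  let f : Multiplicative (Fin h → ℤ) →* G := N.subtype.comp e.symm.toMonoidHom
  have hf : Function.Injective f := N.subtype_injective.comp e.symm.injective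
  let ι : ZG (Zn h) →+* ZG G := MonoidAlgebra.mapDomainRingHom ℤ f
  have hι : Function.Injective ι := MonoidAlgebra.mapDomain_injective hf
  let m0 : Module (ZG (Zn h)) (ZG G) := Module.compHom (ZG G) ι
  let mi : ∀ i, Module (ZG (Zn h)) (C.X i) := fun i => Module.compHom (C.X i) ι
  have t0 : IsScalarTower (ZG (Zn h)) (ZG G) (ZG G) := ⟨fun s x y => mul_assoc _ _ _⟩
  have ti : ∀ i, IsScalarTower (ZG (Zn h)) (ZG G) (C.X i) := fun i =>
    ⟨fun s x y => mul_smul (ι s) x y⟩
  have hfin : Module.Finite (ZG (Zn h)) (ZG G) := by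
    classical
    obtain ⟨T, hT⟩ := span_reps N
    refine ⟨⟨T.image (fun t => (MonoidAlgebra.single t 1 : ZG G)), ?_⟩⟩
    rw [eq_top_iff]
    rintro x -
    induction x using MonoidAlgebra.induction_on with
    | of g =>
      obtain ⟨n, t, ht, rfl⟩ := hT g
      have h1 : (MonoidAlgebra.of ℤ G (n * t) : ZG G) =
          (MonoidAlgebra.single (e n) 1 : ZG (Zn h)) • (MonoidAlgebra.single t 1 : ZG G) := by
        change _ = ι (MonoidAlgebra.single (e n) 1) * MonoidAlgebra.single t 1
        change _ = MonoidAlgebra.mapDomain f (MonoidAlgebra.single (e n) 1) *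
          MonoidAlgebra.single t 1
        rw [MonoidAlgebra.mapDomain_single, MonoidAlgebra.single_mul_single, mul_one]
        have h2 : f (e n) = n := by
          change ((e.symm (e n) : N) : G) = n
          rw [e.symm_apply_apply]
        rw [h2]
        rfl
      rw [h1]
      refine Submodule.smul_mem _ _ (Submodule.subset_span ?_)
      rw [Finset.coe_image]
      exact ⟨t, ht, rfl⟩
    | add x y hx hy => exact Submodule.add_mem _ hx hy
    | smul k x hx =>
      have h1 : k • x = ((k : ℤ) : ZG (Zn h)) • x := by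
        rw [Int.cast_smul_eq_zsmul]
      rw [h1]
      exact Submodule.smul_mem _ _ hx
  have hD := hC.data
  have hinj : ∀ s : ZG (Zn h), s • (1 : ZG G) = 0 → s = 0 := by
    intro s hs
    apply hι
    rw [map_zero]
    exact (mul_one (ι s)).symm.trans hs
  exact key hinj (fun i => C.X i) (fun i => (C.d i).hom)
    (fun i x => dd_zero (R := ZG G) C (i + 2) (i + 1) i x) c K hc hK
    ((exactAt_succ_iff (R := ZG G) C 0).1 hD.homology_one)
    (fun i => (exactAt_succ_iff (R := ZG G) C (i + 2)).1 (hD.homology_high (i + 3) (by omega)))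

end Vale.Agent.P246.H301
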