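import Mathlib

/-! # P246: stable range one for semisimple rings -/

namespace Vale.Agent.P246.H301

open Submodule

variable {Q : Type*} [Ring Q] [IsSemisimpleRing Q]

/-- right multiplication -/
def rm (y : Q) : Q →ₗ[Q] Q := LinearMap.toSpanSingleton Q Q y

theorem rm_apply (y x : Q) : rm y x = x * y := rfl

/-- the annihilator of an element is generated by an idempotent -/
theorem ann_idem (y : Q) : ∃ e : Q, e * y = 0 ∧ e * e = e ∧ ∀ s, s * y = 0 → s = s * e := by
  obtain ⟨K', hK⟩ := exists_isCompl (LinearMap.ker (rm y))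
  have h1 : (1 : Q) ∈ LinearMap.ker (rm y) ⊔ K' := by rw [hK.sup_eq_top]; trivial
  obtain ⟨e, he, e', he', h2⟩ := mem_sup.1 h1
  have hey : e * y = 0 := LinearMap.mem_ker.1 he
  have key : ∀ s, s * y = 0 → s = s * e := by
    intro s hs
    have h3 : s * e' = s - s * e := by
      rw [← mul_one s, mul_assoc, mul_assoc, one_mul, one_mul, ← mul_sub, ← h2]
      congr 1; abel
    have h4 : s * e' ∈ LinearMap.ker (rm y) := by
      rw [h3]
      show (s - s * e) * y = 0
      rw [sub_mul, hs, mul_assoc, hey, mul_zero, sub_zero]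
    have h5 : s * e' ∈ K' := K'.smul_mem s he'
    have h6 : s * e' = 0 := by
      have : s * e' ∈ LinearMap.ker (rm y) ⊓ K' := ⟨h4, h5⟩
      rw [hK.inf_eq_bot] at this
      exact this
    rw [h6] at h3
    exact (sub_eq_zero.1 h3.symm)
  exact ⟨e, hey, (key e hey).symm, key⟩

/-- **stable range one**: `Q y + B = Q` gives `b ∈ B` with `Q (y + b) = Q` -/
theorem ss_unit (y : Q) (B : Ideal Q) (h : Ideal.span {y} ⊔ B = ⊤) :
    ∃ b ∈ B, Ideal.span {y + b} = ⊤ := by
  -- a maximal choice
  have hne : {I : Ideal Q | ∃ b ∈ B, Ideal.span {y + b} = I}.Nonempty :=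
    ⟨_, 0, B.zero_mem, rfl⟩
  obtain ⟨I, ⟨b, hb, rfl⟩, hmax⟩ := WellFounded.has_min
    (wellFounded_gt (α := Ideal Q)) _ hne
  refine ⟨b, hb, ?_⟩
  have hmax' : ∀ c ∈ B, Ideal.span {y + b} ≤ Ideal.span {y + c} →
      Ideal.span {y + c} = Ideal.span {y + b} := by
    intro c hc hle
    by_contra hne
    exact hmax _ ⟨c, hc, rfl⟩ (lt_of_le_of_ne hle (Ne.symm hne))
  set x := y + b with hx
  have h' : Ideal.span {x} ⊔ B = ⊤ := by
    rw [eq_top_iff, ← h]
    refine sup_le ?_ le_sup_right
    rw [Ideal.span_singleton_le_iff_mem]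
    have : y = x + (-b) := by rw [hx]; abel
    rw [this]
    exact add_mem (mem_sup_left (Ideal.mem_span_singleton_self x)) (mem_sup_right (B.neg_mem hb))
  obtain ⟨e, he1, he2, he3⟩ := ann_idem x
  have h1 : ∀ c ∈ B, ∀ t : Q, e * t * c ∈ Ideal.span {x} := by
    intro c hc t
    have h2 : (1 - e) * (x + e * t * c) = x := by
      have : e * (e * t * c) = e * t * c := by rw [← mul_assoc, ← mul_assoc, he2]
      rw [sub_mul, one_mul, mul_add, he1, zero_add, this]; abel
    have h3 : Ideal.span {x} ≤ Ideal.span {x + e * t * c} := by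
      rw [Ideal.span_singleton_le_iff_mem, Ideal.mem_span_singleton']
      exact ⟨1 - e, h2⟩
    have h4 : x + e * t * c = y + (b + e * t * c) := by rw [hx]; abel
    have h5 : Ideal.span {x + e * t * c} = Ideal.span {x} := by
      rw [h4] at h3 ⊢
      exact hmax' _ (add_mem hb (B.mul_mem_left _ hc)) h3
    have h6 : x + e * t * c ∈ Ideal.span {x} := by
      rw [← h5]; exact Ideal.mem_span_singleton_self _
    have h7 := sub_mem h6 (Ideal.mem_span_singleton_self x)
    rwa [add_sub_cancel_left] at h7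
  have h2 : ∀ t : Q, e * t ∈ Ideal.span {x} := by
    intro t
    have h3 : (1 : Q) ∈ Ideal.span {x} ⊔ B := by rw [h']; trivial
    obtain ⟨u, hu, c, hc, h4⟩ := mem_sup.1 h3
    have h5 : e * t = e * t * u + e * t * c := by rw [← mul_add, h4, mul_one]
    rw [h5]
    exact add_mem (Ideal.mul_mem_left _ _ hu) (h1 c hc t)
  -- the two-sided ideal generated by `e`
  let J : Ideal Q := Ideal.span (Set.range fun t : Q => e * t)
  have hJr : ∀ i ∈ J, i * x ∈ J := by
    intro i hi
    induction hi using Submodule.span_induction with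
    | mem i hi =>
      obtain ⟨t, rfl⟩ := hi
      exact Ideal.subset_span ⟨t * x, (mul_assoc _ _ _).symm⟩
    | zero => rw [zero_mul]; exact J.zero_mem
    | add a b _ _ ha hb => rw [add_mul]; exact add_mem ha hb
    | smul s a _ ha => rw [smul_eq_mul, mul_assoc]; exact Ideal.mul_mem_left _ _ ha
  let f : J →ₗ[Q] J := (rm x).restrict hJr
  have hf : Function.Surjective f := by
    rw [← LinearMap.range_eq_top]
    have hle : ∀ i ∈ J, ∃ j ∈ J, j * x = i := by
      intro i hi
      induction hi using Submodule.span_induction with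
      | mem i hi =>
        obtain ⟨t, rfl⟩ := hi
        obtain ⟨s, hs⟩ := Ideal.mem_span_singleton'.1 (h2 t)
        refine ⟨e * s, Ideal.subset_span ⟨s, rfl⟩, ?_⟩
        rw [mul_assoc, hs, ← mul_assoc, he2]
      | zero => exact ⟨0, J.zero_mem, zero_mul _⟩
      | add a b _ _ ha hb =>
        obtain ⟨a', ha1, ha2⟩ := ha
        obtain ⟨b', hb1, hb2⟩ := hb
        exact ⟨a' + b', add_mem ha1 hb1, by rw [add_mul, ha2, hb2]⟩
      | smul s a _ ha =>
        obtain ⟨a', ha1, ha2⟩ := ha
        exact ⟨s * a', Ideal.mul_mem_left _ _ ha1, by rw [mul_assoc, ha2]; rfl⟩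
    rw [eq_top_iff]
    rintro ⟨i, hi⟩ -
    obtain ⟨j, hj, hji⟩ := hle i hi
    exact ⟨⟨j, hj⟩, Subtype.ext hji⟩
  have hinj : Function.Injective f := IsNoetherian.injective_of_surjective_endomorphism f hf
  have he0 : e = 0 := by
    have heJ : e ∈ J := Ideal.subset_span ⟨1, mul_one e⟩
    have h3 : f ⟨e, heJ⟩ = 0 := Subtype.ext he1
    have h4 : (⟨e, heJ⟩ : J) = 0 := hinj (by rw [h3, map_zero])
    exact congrArg Subtype.val h4
  have hinj2 : Function.Injective (rm x) := by
    rw [← LinearMap.ker_eq_bot, LinearMap.ker_eq_bot']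
    intro s hs
    have := he3 s hs
    rw [he0, mul_zero] at this
    exact this
  have hsurj := IsArtinian.surjective_of_injective_endomorphism (rm x) hinj2
  obtain ⟨s, hs⟩ := hsurj 1
  rw [Ideal.eq_top_iff_one, Ideal.mem_span_singleton']
  exact ⟨s, hs⟩

end Vale.Agent.P246.H301
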